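import Vale.Agent.P207.H870.Alg
import Vale.Agent.P207.H61.Log
import Vale.Agent.P207.H253.Ell1

/-!
P207, all dimensions: step 6 for a space `S` of bilinear forms which contains all alternating forms
(the normalisation of helper478's ruling R1).
-/

set_option autoImplicit false

namespace Vale.Agent.P207.H870.Alg

variable {E : Type*} [NormedAddCommGroup E] [NormedSpace ℝ E]

/-- the symmetric forms of `S` -/
def symS (S : Submodule ℝ (E →L[ℝ] E →L[ℝ] ℝ)) : Submodule ℝ (E →L[ℝ] E →L[ℝ] ℝ) where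
  carrier := {s | s ∈ S ∧ ∀ u v, s u v = s v u}
  add_mem' := by
    rintro s t ⟨h1, h2⟩ ⟨h3, h4⟩
    refine ⟨S.add_mem h1 h3, fun u v => ?_⟩
    change s u v + t u v = s v u + t v u
    rw [h2, h4]
  zero_mem' := ⟨S.zero_mem, fun u v => rfl⟩
  smul_mem' := by
    rintro c s ⟨h1, h2⟩
    refine ⟨S.smul_mem c h1, fun u v => ?_⟩
    change c * s u v = c * s v u
    rw [h2]

theorem mem_symS {S : Submodule ℝ (E →L[ℝ] E →L[ℝ] ℝ)} {s : E →L[ℝ] E →L[ℝ] ℝ} :
    s ∈ symS S ↔ s ∈ S ∧ ∀ u v, s u v = s v u := Iff.rfl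

/-- **STEP 6 with alternating forms**: `S` a space of bilinear forms containing the alternating
ones, `J S` irreducible and containing an element of rank one: then `S` consists of the alternating
forms or contains all forms. -/
theorem alg_alt [FiniteDimensional ℝ E] {S : Submodule ℝ (E →L[ℝ] E →L[ℝ] ℝ)}
    (halt : ∀ s : E →L[ℝ] E →L[ℝ] ℝ, (∀ u v, s u v = - s v u) → s ∈ S)
    (hirr : ∀ F : Submodule ℝ E, (∀ X ∈ H61.J S, ∀ v ∈ F, X v ∈ F) → F = ⊥ ∨ F = ⊤)
    {ζ : E →L[ℝ] ℝ} {w : E} (hζ : ζ ≠ 0) (hw : w ≠ 0) (hX : ζ.smulRight w ∈ H61.J S) :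
    (∀ s ∈ S, ∀ u v, s u v = - s v u) ∨ S = ⊤ := by
  have hJ : ∀ X ∈ H61.J S, ∀ s ∈ symS S, ∃ s' ∈ symS S, ∀ u v, s' u v = s (X u) v + s u (X v) := by
    intro X hX s hs
    obtain ⟨t, ht, h1⟩ := hX s hs.1
    refine ⟨t, ⟨ht, fun u v => ?_⟩, h1⟩
    rw [h1, h1, hs.2 (X u) v, hs.2 u (X v), add_comm]
  have hflip : ∀ s ∈ S, s.flip ∈ S := by
    intro s hs
    have h1 : s - s.flip ∈ S := by
      apply halt
      intro u v
      change s u v - s v u = -(s v u - s u v)
      ring
    have h2 : s.flip = s + (-1 : ℝ) • (s - s.flip) := by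
      apply ContinuousLinearMap.ext
      intro u
      apply ContinuousLinearMap.ext
      intro v
      change s v u = s u v + (-1) * (s u v - s v u)
      ring
    rw [h2]
    exact S.add_mem hs (S.smul_mem (-1 : ℝ) h1)
  have key := alg' (E := E) (S := symS S) (ζ := ζ) (w := w) (fun s hs => hs.2) ?_ hζ hw ?_
  · rcases key with key | key
    · left
      intro s hs u v
      have h1 : s + s.flip ∈ symS S := by
        refine ⟨S.add_mem hs (hflip s hs), fun u v => ?_⟩
        change s u v + s v u = s v u + s u v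
        ring
      rw [key, Submodule.mem_bot] at h1
      have h2 : (s + s.flip) u v = 0 := by rw [h1]; rfl
      have h3 : s u v + s v u = 0 := h2
      linarith
    · right
      rw [Submodule.eq_top_iff']
      intro s
      have h1 : s + s.flip ∈ S := by
        refine (key (s + s.flip) fun u v => ?_).1
        change s u v + s v u = s v u + s u v
        ring
      have h2 : s - s.flip ∈ S := by
        apply halt
        intro u v
        change s u v - s v u = -(s v u - s u v)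
        ring
      have h3 : s = (1 / 2 : ℝ) • ((s + s.flip) + (s - s.flip)) := by
        apply ContinuousLinearMap.ext
        intro u
        apply ContinuousLinearMap.ext
        intro v
        change s u v = 1 / 2 * ((s u v + s v u) + (s u v - s v u))
        ring
      rw [h3]
      exact S.smul_mem _ (S.add_mem h1 h2)
  · intro F hF
    exact hirr F fun X hX => hF X (hJ X hX)
  · intro s hs
    obtain ⟨t, ht, h1⟩ := hJ _ hX s hs
    refine ⟨t, ht, fun u v => ?_⟩
    rw [h1]
    simp only [ContinuousLinearMap.smulRight_apply, map_smul, smul_eq_mul]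
    rfl

/-- the same with 253's `rk ζ w`, `ζ w : E` -/
theorem alg_rk {E : Type*} [NormedAddCommGroup E] [InnerProductSpace ℝ E] [FiniteDimensional ℝ E]
    {S : Submodule ℝ (E →L[ℝ] E →L[ℝ] ℝ)}
    (halt : ∀ s : E →L[ℝ] E →L[ℝ] ℝ, (∀ u v, s u v = - s v u) → s ∈ S)
    (hirr : ∀ F : Submodule ℝ E, (∀ X ∈ H61.J S, ∀ v ∈ F, X v ∈ F) → F = ⊥ ∨ F = ⊤)
    {ζ w : E} (hζ : ζ ≠ 0) (hw : w ≠ 0) (hX : H253.rk ζ w ∈ H61.J S) :
    (∀ s ∈ S, ∀ u v, s u v = - s v u) ∨ S = ⊤ := by
  refine alg_alt halt hirr (ζ := innerSL ℝ ζ) ?_ hw hX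
  intro h0
  apply hζ
  have h1 : innerSL ℝ ζ ζ = 0 := by rw [h0]; rfl
  have h2 : inner ℝ ζ ζ = (0 : ℝ) := h1
  exact inner_self_eq_zero.1 h2

end Vale.Agent.P207.H870.Alg
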