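import Mathlib

/-!
# P207, all dimensions: the algebra of step 6

`S` is a space of symmetric bilinear forms on a finite dimensional space `E`, `J` the Lie algebra of
all endomorphisms preserving `S`.  If `J` is irreducible and contains an element of rank one, then
`S` is zero or contains all symmetric forms.
-/

set_option autoImplicit false

open NormedSpace Filter Topology

namespace Vale.Agent.P207.H870.Alg

/-- bilinear forms -/
def Form (E : Type*) [NormedAddCommGroup E] [NormedSpace ℝ E] : Type _ := E →L[ℝ] E →L[ℝ] ℝ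

section inst

variable (E : Type*) [NormedAddCommGroup E] [NormedSpace ℝ E]

noncomputable instance : NormedAddCommGroup (Form E) :=
  inferInstanceAs (NormedAddCommGroup (E →L[ℝ] E →L[ℝ] ℝ))

noncomputable instance : NormedSpace ℝ (Form E) :=
  inferInstanceAs (NormedSpace ℝ (E →L[ℝ] E →L[ℝ] ℝ))

instance : CompleteSpace (Form E) :=
  inferInstanceAs (CompleteSpace (E →L[ℝ] E →L[ℝ] ℝ))

instance [FiniteDimensional ℝ E] : FiniteDimensional ℝ (Form E) :=
  inferInstanceAs (FiniteDimensional ℝ (E →L[ℝ] E →L[ℝ] ℝ))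

end inst

variable {E : Type*} [NormedAddCommGroup E] [NormedSpace ℝ E]

theorem exp_add' {A : Type*} [NormedRing A] [NormedAlgebra ℝ A] [CompleteSpace A] {x y : A}
    (h : Commute x y) : exp (x + y) = exp x * exp y := by
  let +nondep : NormedAlgebra ℚ A := .restrictScalars ℚ ℝ A
  exact exp_add_of_commute h

theorem exp_mul_neg {A : Type*} [NormedRing A] [NormedAlgebra ℝ A] [CompleteSpace A] (x : A) :
    exp x * exp (-x) = 1 := by
  rw [← exp_add' (Commute.refl x).neg_right, add_neg_cancel, exp_zero]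

theorem exp_neg_mul {A : Type*} [NormedRing A] [NormedAlgebra ℝ A] [CompleteSpace A] (x : A) :
    exp (-x) * exp x = 1 := by
  rw [← exp_add' (Commute.refl x).neg_left, neg_add_cancel, exp_zero]

/-- the value -/
noncomputable def Form.ap (s : Form E) (u v : E) : ℝ := (show E →L[ℝ] E →L[ℝ] ℝ from s) u v

theorem Form.ext' {s t : Form E} (h : ∀ u v, s.ap u v = t.ap u v) : s = t := by
  apply ContinuousLinearMap.ext
  intro u
  apply ContinuousLinearMap.ext
  intro v
  exact h u v

/-- `s ↦ s (X ·, ·)` -/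
noncomputable def La : (E →L[ℝ] E) →L[ℝ] (Form E →L[ℝ] Form E) :=
  (ContinuousLinearMap.compL ℝ E E (E →L[ℝ] ℝ)).flip

theorem La_apply (X : E →L[ℝ] E) (s : Form E) (u v : E) : (La X s).ap u v = s.ap (X u) v := rfl

/-- the flip -/
noncomputable def Fl : Form E →L[ℝ] Form E :=
  (ContinuousLinearMap.flipₗᵢ ℝ E E ℝ).toContinuousLinearEquiv.toContinuousLinearMap

theorem Fl_apply (s : Form E) (u v : E) : (Fl s).ap u v = s.ap v u := rfl

/-- `s ↦ s (·, X ·)` -/
noncomputable def Ra (X : E →L[ℝ] E) : Form E →L[ℝ] Form E := Fl * La X * Fl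

theorem Ra_apply (X : E →L[ℝ] E) (s : Form E) (u v : E) : (Ra X s).ap u v = s.ap u (X v) := rfl

theorem Fl_sq : (Fl : Form E →L[ℝ] Form E) * Fl = 1 :=
  ContinuousLinearMap.ext fun _ => Form.ext' fun _ _ => rfl

theorem La_pow (X : E →L[ℝ] E) (n : ℕ) : La (X ^ n) = La X ^ n := by
  induction n with
  | zero => exact ContinuousLinearMap.ext fun _ => Form.ext' fun _ _ => rfl
  | succ n ih =>
    rw [pow_succ X, pow_succ' (La X), ← ih]
    exact ContinuousLinearMap.ext fun _ => Form.ext' fun _ _ => rfl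

/-- the derivation -/
noncomputable def Dl (X : E →L[ℝ] E) : Form E →L[ℝ] Form E := La X + Ra X

theorem Dl_apply (X : E →L[ℝ] E) (s : Form E) (u v : E) :
    (Dl X s).ap u v = s.ap (X u) v + s.ap u (X v) := rfl

/-- pull back -/
noncomputable def pull (g : E →L[ℝ] E) : Form E →L[ℝ] Form E := La g * Ra g

theorem pull_apply (g : E →L[ℝ] E) (s : Form E) (u v : E) :
    (pull g s).ap u v = s.ap (g u) (g v) := rfl

theorem La_exp [CompleteSpace E] (X : E →L[ℝ] E) : La (exp X) = exp (La X) := by
  have h1 : HasSum (fun n : ℕ => ((n.factorial : ℝ)⁻¹) • X ^ n) (exp X) :=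
    NormedSpace.exp_series_hasSum_exp' (𝕂 := ℝ) X
  have h2 : HasSum (fun n : ℕ => ((n.factorial : ℝ)⁻¹) • La X ^ n) (exp (La X)) :=
    NormedSpace.exp_series_hasSum_exp' (𝕂 := ℝ) (La X)
  have h3 := La.hasSum h1
  refine h3.unique ?_
  convert h2 using 2 with n
  rw [map_smul, La_pow]

theorem Ra_pow (X : E →L[ℝ] E) (n : ℕ) : Ra X ^ n = Fl * La X ^ n * Fl := by
  induction n with
  | zero => rw [pow_zero, pow_zero, mul_one, Fl_sq]
  | succ n ih =>
    rw [pow_succ, ih, Ra]
    calc Fl * La X ^ n * Fl * (Fl * La X * Fl) = Fl * La X ^ n * (Fl * Fl) * La X * Fl := by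
          simp only [mul_assoc]
      _ = Fl * (La X ^ (n + 1)) * Fl := by rw [Fl_sq, pow_succ]; simp only [mul_assoc, one_mul]

theorem Ra_exp [CompleteSpace E] (X : E →L[ℝ] E) : Ra (exp X) = exp (Ra X) := by
  have h1 : HasSum (fun n : ℕ => ((n.factorial : ℝ)⁻¹) • La X ^ n) (exp (La X)) :=
    NormedSpace.exp_series_hasSum_exp' (𝕂 := ℝ) (La X)
  have h2 : HasSum (fun n : ℕ => ((n.factorial : ℝ)⁻¹) • Ra X ^ n) (exp (Ra X)) :=
    NormedSpace.exp_series_hasSum_exp' (𝕂 := ℝ) (Ra X)
  have h3 := (h1.mul_left Fl).mul_right Fl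
  have h4 : (fun n : ℕ => Fl * ((n.factorial : ℝ)⁻¹) • La X ^ n * Fl) =
      fun n : ℕ => ((n.factorial : ℝ)⁻¹) • Ra X ^ n := by
    funext n
    rw [Ra_pow, mul_smul_comm, smul_mul_assoc]
  rw [Ra, La_exp]
  rw [h4] at h3
  exact h3.unique h2

theorem commute_LR (X : E →L[ℝ] E) : Commute (La X) (Ra X) :=
  ContinuousLinearMap.ext fun _ => Form.ext' fun _ _ => rfl

theorem pull_exp [CompleteSpace E] (X : E →L[ℝ] E) : pull (exp X) = exp (Dl X) := by
  rw [pull, Dl, La_exp, Ra_exp]
  exact (exp_add' (commute_LR X)).symm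

theorem ap_add_left (s : Form E) (u u' v : E) : s.ap (u + u') v = s.ap u v + s.ap u' v :=
  congrArg (fun f : E →L[ℝ] ℝ => f v) ((show E →L[ℝ] E →L[ℝ] ℝ from s).map_add u u')

theorem ap_smul_left (s : Form E) (c : ℝ) (u v : E) : s.ap (c • u) v = c * s.ap u v :=
  congrArg (fun f : E →L[ℝ] ℝ => f v) ((show E →L[ℝ] E →L[ℝ] ℝ from s).map_smul c u)

theorem ap_add_right (s : Form E) (u v v' : E) : s.ap u (v + v') = s.ap u v + s.ap u v' := by
  simp only [Form.ap, map_add]

theorem ap_smul_right (s : Form E) (c : ℝ) (u v : E) : s.ap u (c • v) = c * s.ap u v := by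
  simp only [Form.ap, map_smul]; rfl

theorem add_ap (s t : Form E) (u v : E) : (s + t).ap u v = s.ap u v + t.ap u v := rfl

theorem sub_ap (s t : Form E) (u v : E) : (s - t).ap u v = s.ap u v - t.ap u v := rfl

theorem smul_ap (c : ℝ) (s : Form E) (u v : E) : (c • s).ap u v = c * s.ap u v := rfl

theorem zero_ap (u v : E) : (0 : Form E).ap u v = 0 := rfl

/-- `X` preserves `S` (infinitesimally) -/
def Pr (S : Submodule ℝ (Form E)) (X : E →L[ℝ] E) : Prop := ∀ s ∈ S, Dl X s ∈ S

theorem Pr.smul {S : Submodule ℝ (Form E)} {X : E →L[ℝ] E} (hX : Pr S X) (c : ℝ) :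
    Pr S (c • X) := by
  intro s hs
  have h : Dl (c • X) s = c • Dl X s := by
    apply Form.ext'
    intro u v
    rw [Dl_apply, smul_ap, Dl_apply]
    have h1 : (c • X) u = c • X u := rfl
    have h2 : (c • X) v = c • X v := rfl
    rw [h1, h2, ap_smul_left, ap_smul_right]
    ring
  rw [h]
  exact S.smul_mem c (hX s hs)

theorem Pr.neg {S : Submodule ℝ (Form E)} {X : E →L[ℝ] E} (hX : Pr S X) : Pr S (-X) := by
  have := hX.smul (-1)
  rwa [neg_one_smul] at this

theorem pull_mul (g h : E →L[ℝ] E) (s : Form E) : pull (g * h) s = pull h (pull g s) :=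
  Form.ext' fun _ _ => rfl

theorem pull_one (s : Form E) : pull 1 s = s := Form.ext' fun _ _ => rfl

/-- the group generated by the exponentials -/
def G (S : Submodule ℝ (Form E)) : Submonoid (E →L[ℝ] E) :=
  Submonoid.closure {g | ∃ X, Pr S X ∧ g = exp X}

theorem exp_mem {S : Submodule ℝ (Form E)} {X : E →L[ℝ] E} (hX : Pr S X) : exp X ∈ G S :=
  Submonoid.subset_closure ⟨X, hX, rfl⟩

section fd

variable [FiniteDimensional ℝ E]

theorem pull_exp_mem {S : Submodule ℝ (Form E)} {X : E →L[ℝ] E} (hX : Pr S X) {s : Form E}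
    (hs : s ∈ S) : pull (exp X) s ∈ S := by
  have : CompleteSpace E := FiniteDimensional.complete ℝ E
  have hp : ∀ n : ℕ, (Dl X ^ n) s ∈ S := by
    intro n
    induction n with
    | zero => exact hs
    | succ n ih =>
      rw [pow_succ']
      exact hX _ ih
  have h1 : HasSum (fun n : ℕ => ((n.factorial : ℝ)⁻¹) • Dl X ^ n) (exp (Dl X)) :=
    NormedSpace.exp_series_hasSum_exp' (𝕂 := ℝ) (Dl X)
  have h2 := (ContinuousLinearMap.apply ℝ (Form E) s).hasSum h1
  have hcl : IsClosed (S : Set (Form E)) := S.closed_of_finiteDimensional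
  rw [pull_exp]
  refine hcl.mem_of_tendsto h2 (Eventually.of_forall fun A => ?_)
  refine S.sum_mem fun n _ => ?_
  exact S.smul_mem _ (hp n)

theorem G_pull {S : Submodule ℝ (Form E)} {g : E →L[ℝ] E} (hg : g ∈ G S) :
    ∀ s ∈ S, pull g s ∈ S := by
  induction hg using Submonoid.closure_induction with
  | mem x hx =>
    obtain ⟨X, hX, rfl⟩ := hx
    exact fun s hs => pull_exp_mem hX hs
  | one => intro s hs; rwa [pull_one]
  | mul x y _ _ hx hy =>
    intro s hs
    rw [pull_mul]
    exact hy _ (hx _ hs)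

theorem G_inv {S : Submodule ℝ (Form E)} {g : E →L[ℝ] E} (hg : g ∈ G S) :
    ∃ g' ∈ G S, g * g' = 1 ∧ g' * g = 1 := by
  have : CompleteSpace E := FiniteDimensional.complete ℝ E
  induction hg using Submonoid.closure_induction with
  | mem x hx =>
    obtain ⟨X, hX, rfl⟩ := hx
    exact ⟨exp (-X), exp_mem hX.neg, exp_mul_neg X, exp_neg_mul X⟩
  | one => exact ⟨1, Submonoid.one_mem _, one_mul 1, one_mul 1⟩
  | mul x y _ _ hx hy =>
    obtain ⟨x', hx', h1, h2⟩ := hx
    obtain ⟨y', hy', h3, h4⟩ := hy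
    refine ⟨y' * x', Submonoid.mul_mem _ hy' hx', ?_, ?_⟩
    · calc x * y * (y' * x') = x * (y * y') * x' := by simp only [mul_assoc]
        _ = 1 := by rw [h3, mul_one, h1]
    · calc y' * x' * (x * y) = y' * (x' * x) * y := by simp only [mul_assoc]
        _ = 1 := by rw [h2, mul_one, h4]

theorem G_path {S : Submodule ℝ (Form E)} {g : E →L[ℝ] E} (hg : g ∈ G S) :
    ∃ γ : ℝ → (E →L[ℝ] E), AnalyticOnNhd ℝ γ Set.univ ∧ γ 0 = 1 ∧ γ 1 = g ∧ ∀ t, γ t ∈ G S := by
  have : CompleteSpace E := FiniteDimensional.complete ℝ E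
  induction hg using Submonoid.closure_induction with
  | mem x hx =>
    obtain ⟨X, hX, rfl⟩ := hx
    refine ⟨fun t => exp (t • X), ?_, ?_, ?_, fun t => exp_mem (hX.smul t)⟩
    · intro t _
      have h1 : AnalyticAt ℝ (exp : (E →L[ℝ] E) → (E →L[ℝ] E)) ((fun t : ℝ => t • X) t) :=
        exp_analytic _
      have h2 : AnalyticAt ℝ (fun t : ℝ => t • X) t := analyticAt_id.smul analyticAt_const
      exact AnalyticAt.fun_comp h1 h2
    · simp only [zero_smul, exp_zero]
    · simp only [one_smul]
  | one => exact ⟨fun _ => 1, analyticOnNhd_const, rfl, rfl, fun _ => Submonoid.one_mem _⟩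
  | mul x y _ _ hx hy =>
    obtain ⟨γ, h1, h2, h3, h4⟩ := hx
    obtain ⟨δ, k1, k2, k3, k4⟩ := hy
    refine ⟨fun t => γ t * δ t, h1.mul k1, ?_, ?_, fun t => Submonoid.mul_mem _ (h4 t) (k4 t)⟩
    · simp only [h2, k2, mul_one]
    · simp only [h3, k3]

theorem an_lin (a : (E →L[ℝ] E) →ₗ[ℝ] ℝ) {γ : ℝ → (E →L[ℝ] E)}
    (hγ : AnalyticOnNhd ℝ γ Set.univ) : AnalyticOnNhd ℝ (fun t => a (γ t)) Set.univ := by
  intro t _
  have h1 : AnalyticAt ℝ (LinearMap.toContinuousLinearMap a) (γ t) :=
    ContinuousLinearMap.analyticAt _ _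
  exact AnalyticAt.fun_comp h1 (hγ t trivial)

/-- a product of two matrix coefficients vanishes only if one of them does -/
theorem gen {S : Submodule ℝ (Form E)} (a b : (E →L[ℝ] E) →ₗ[ℝ] ℝ)
    (h : ∀ g ∈ G S, a g * b g = 0) : (∀ g ∈ G S, a g = 0) ∨ (∀ g ∈ G S, b g = 0) := by
  by_contra hcon
  push Not at hcon
  obtain ⟨⟨g, hg, hag⟩, ⟨k, hk, hbk⟩⟩ := hcon
  obtain ⟨g', hg', h1, h2⟩ := G_inv hg
  obtain ⟨γ, hγ, γ0, γ1, hγm⟩ := G_path (Submonoid.mul_mem _ hk hg')
  have hA : AnalyticOnNhd ℝ (fun t => γ t * g) Set.univ := hγ.mul analyticOnNhd_const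
  have ha := an_lin a hA
  have hb := an_lin b hA
  have hab : ∀ t ∈ (Set.univ : Set ℝ), a (γ t * g) * b (γ t * g) = 0 := fun t _ =>
    h _ (Submonoid.mul_mem _ (hγm t) hg)
  rcases AnalyticOnNhd.eq_zero_or_eq_zero_of_mul_eq_zero ha hb hab isPreconnected_univ with h3 | h3
  · apply hag
    have := h3 0 trivial
    simpa only [γ0, one_mul] using this
  · apply hbk
    have := h3 1 trivial
    simpa only [γ1, mul_assoc, h2, mul_one] using this

/-- derivative of a coefficient along `exp (t X)` -/
theorem deriv_right {S : Submodule ℝ (Form E)} (a : (E →L[ℝ] E) →ₗ[ℝ] ℝ)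
    (h : ∀ g ∈ G S, a g = 0) {X : E →L[ℝ] E} (hX : Pr S X) {g : E →L[ℝ] E} (hg : g ∈ G S) :
    a (g * X) = 0 ∧ a (X * g) = 0 := by
  have : CompleteSpace E := FiniteDimensional.complete ℝ E
  have h1 : HasDerivAt (fun t : ℝ => exp (t • X)) (exp ((0:ℝ) • X) * X) 0 :=
    hasDerivAt_exp_smul_const X (0 : ℝ)
  rw [zero_smul, exp_zero, one_mul] at h1
  have h2 : HasDerivAt (fun t : ℝ => g * exp (t • X)) (g * X) 0 := h1.const_mul g
  have h3 : HasDerivAt (fun t : ℝ => exp (t • X) * g) (X * g) 0 := h1.mul_const g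
  have h4 := (LinearMap.toContinuousLinearMap a).hasFDerivAt.comp_hasDerivAt (0:ℝ) h2
  have h5 := (LinearMap.toContinuousLinearMap a).hasFDerivAt.comp_hasDerivAt (0:ℝ) h3
  have e4 : (⇑(LinearMap.toContinuousLinearMap a) ∘ fun t : ℝ => g * exp (t • X)) =
      fun _ => (0:ℝ) := by
    funext t
    exact h _ (Submonoid.mul_mem _ hg (exp_mem (hX.smul t)))
  have e5 : (⇑(LinearMap.toContinuousLinearMap a) ∘ fun t : ℝ => exp (t • X) * g) =
      fun _ => (0:ℝ) := by
    funext t
    exact h _ (Submonoid.mul_mem _ (exp_mem (hX.smul t)) hg)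
  rw [e4] at h4
  rw [e5] at h5
  exact ⟨h4.unique (hasDerivAt_const _ _), h5.unique (hasDerivAt_const _ _)⟩

/-- irreducibility of the Lie algebra -/
def Irr (S : Submodule ℝ (Form E)) : Prop :=
  ∀ F : Submodule ℝ E, (∀ X, Pr S X → ∀ v ∈ F, X v ∈ F) → F = ⊥ ∨ F = ⊤

theorem orbit_vec {S : Submodule ℝ (Form E)} (hirr : Irr S) {w : E} (hw : w ≠ 0)
    {φ : E →ₗ[ℝ] ℝ} (h : ∀ g ∈ G S, φ (g w) = 0) : φ = 0 := by
  let F : Submodule ℝ E :=
    { carrier := {v | ∀ ψ : E →ₗ[ℝ] ℝ, (∀ g ∈ G S, ψ (g w) = 0) → ψ v = 0}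
      add_mem' := fun {u v} hu hv ψ hψ => by rw [map_add, hu ψ hψ, hv ψ hψ, add_zero]
      zero_mem' := fun ψ _ => map_zero ψ
      smul_mem' := fun c v hv ψ hψ => by rw [map_smul, hv ψ hψ, smul_zero] }
  have hF : ∀ X, Pr S X → ∀ v ∈ F, X v ∈ F := by
    intro X hX v hv ψ hψ
    refine hv (ψ.comp X.toLinearMap) ?_
    intro g hg
    let a : (E →L[ℝ] E) →ₗ[ℝ] ℝ :=
      { toFun := fun A => ψ (A w)
        map_add' := fun A B => map_add ψ _ _
        map_smul' := fun c A => map_smul ψ c _ }
    exact (deriv_right a hψ hX hg).2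
  rcases hirr F hF with h0 | h1
  · exfalso
    apply hw
    have : w ∈ F := fun ψ hψ => hψ 1 (Submonoid.one_mem _)
    rw [h0] at this
    exact (Submodule.mem_bot ℝ).mp this
  · ext v
    have : v ∈ F := by rw [h1]; exact Submodule.mem_top
    exact this φ h

theorem orbit_cov {S : Submodule ℝ (Form E)} (hirr : Irr S) {ζ : E →ₗ[ℝ] ℝ} (hζ : ζ ≠ 0)
    {v : E} (h : ∀ g ∈ G S, ζ (g v) = 0) : v = 0 := by
  let F : Submodule ℝ E :=
    { carrier := {v | ∀ g ∈ G S, ζ (g v) = 0}
      add_mem' := fun {u v} hu hv g hg => by rw [map_add, map_add, hu g hg, hv g hg, add_zero]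
      zero_mem' := fun g _ => by rw [map_zero, map_zero]
      smul_mem' := fun c v hv g hg => by rw [map_smul, map_smul, hv g hg, smul_zero] }
  have hF : ∀ X, Pr S X → ∀ v ∈ F, X v ∈ F := by
    intro X hX v hv g hg
    let a : (E →L[ℝ] E) →ₗ[ℝ] ℝ :=
      { toFun := fun A => ζ (A v)
        map_add' := fun A B => map_add ζ _ _
        map_smul' := fun c A => map_smul ζ c _ }
    exact (deriv_right a hv hX hg).1
  rcases hirr F hF with h0 | h1
  · have : v ∈ F := h
    rw [h0] at this
    exact (Submodule.mem_bot ℝ).mp this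
  · exfalso
    apply hζ
    ext u
    have : u ∈ F := by rw [h1]; exact Submodule.mem_top
    exact this 1 (Submonoid.one_mem _)

theorem span_cov {S : Submodule ℝ (Form E)} (hirr : Irr S) {ζ : E →L[ℝ] ℝ} (hζ : ζ ≠ 0)
    (T : Submodule ℝ (E →L[ℝ] ℝ)) (h : ∀ g ∈ G S, ζ.comp g ∈ T) (η : E →L[ℝ] ℝ) : η ∈ T := by
  by_contra hη
  obtain ⟨f, hf1, hf2⟩ := Submodule.exists_le_ker_of_notMem hη
  let b := Module.finBasis ℝ E
  let v : E := ∑ i, f (LinearMap.toContinuousLinearMap (b.coord i)) • b i
  have hv : ∀ α : E →L[ℝ] ℝ, f α = α v := by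
    intro α
    have h1 : α = ∑ i, α (b i) • LinearMap.toContinuousLinearMap (b.coord i) := by
      apply ContinuousLinearMap.coe_injective
      apply b.ext
      intro j
      simp [Finsupp.single_apply]
    conv_lhs => rw [h1]
    rw [map_sum, map_sum]
    refine Finset.sum_congr rfl fun i _ => ?_
    rw [map_smul, map_smul, smul_eq_mul, smul_eq_mul, mul_comm]
  have h0 : v = 0 := by
    refine orbit_cov hirr (ζ := ζ.toLinearMap) ?_ ?_
    · intro h2
      apply hζ
      ext u
      exact LinearMap.congr_fun h2 u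
    · intro g hg
      have := hf2 (h g hg)
      rw [LinearMap.mem_ker, hv] at this
      exact this
  apply hf1
  rw [hv, h0, map_zero]

end fd

/-- the rank one map `v ↦ ζ v • w` -/
noncomputable def rk (ζ : E →L[ℝ] ℝ) (w : E) : E →L[ℝ] E := ζ.smulRight w

theorem Dl_rk (ζ : E →L[ℝ] ℝ) (w : E) (s : Form E) (u v : E) :
    (Dl (rk ζ w) s).ap u v = ζ u * s.ap w v + ζ v * s.ap u w := by
  rw [Dl_apply]
  have h1 : ∀ x, rk ζ w x = ζ x • w := fun x => rfl
  rw [h1, h1, ap_smul_left, ap_smul_right]

/-- the symmetric product of two linear forms -/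
noncomputable def sy (α β : E →L[ℝ] ℝ) : Form E := α.smulRight β + β.smulRight α

theorem sy_ap (α β : E →L[ℝ] ℝ) (u v : E) : (sy α β).ap u v = α u * β v + β u * α v := rfl

/-- STEP 6: an irreducible Lie algebra `J S` with a rank one element -/
theorem alg [FiniteDimensional ℝ E] {S : Submodule ℝ (Form E)} (hsym : ∀ s ∈ S, ∀ u v, s.ap u v = s.ap v u)
    (hirr : Irr S) {ζ : E →L[ℝ] ℝ} {w : E} (hζ : ζ ≠ 0) (hw : w ≠ 0) (hX : Pr S (rk ζ w)) :
    S = ⊥ ∨ ∀ s : Form E, (∀ u v, s.ap u v = s.ap v u) → s ∈ S := by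
  have hζ' : ζ.toLinearMap ≠ 0 := by
    intro h
    apply hζ
    ext u
    exact LinearMap.congr_fun h u
  -- `g ↦ ζ (g w)` is not identically zero
  let a : (E →L[ℝ] E) →ₗ[ℝ] ℝ :=
    { toFun := fun A => ζ (A w)
      map_add' := fun A B => map_add ζ _ _
      map_smul' := fun c A => map_smul ζ c _ }
  have ha : ¬ ∀ g ∈ G S, a g = 0 := fun h => hζ' (orbit_vec hirr hw (φ := ζ.toLinearMap) h)
  by_cases hc : ∀ s ∈ S, s.ap w w = 0
  · -- case (i)
    left
    rw [Submodule.eq_bot_iff]
    have h1 : ∀ s ∈ S, ∀ v, s.ap w v = 0 := by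
      intro s hs v
      let b : (E →L[ℝ] E) →ₗ[ℝ] ℝ :=
        { toFun := fun A => s.ap w (A w)
          map_add' := fun A B => ap_add_right s w _ _
          map_smul' := fun c A => ap_smul_right s c w _ }
      have hab : ∀ g ∈ G S, a g * b g = 0 := by
        intro g hg
        have h2 := hc _ (G_pull hg _ (hX s hs))
        rw [pull_apply, Dl_rk, hsym s hs (g w) w] at h2
        show ζ (g w) * s.ap w (g w) = 0
        linarith
      rcases gen a b hab with h3 | h3
      · exact absurd h3 ha
      · let φ : E →ₗ[ℝ] ℝ :=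
          { toFun := fun v => s.ap w v
            map_add' := fun x y => ap_add_right s w x y
            map_smul' := fun c x => ap_smul_right s c w x }
        have h4 : φ = 0 := orbit_vec hirr hw h3
        exact LinearMap.congr_fun h4 v
    intro s hs
    apply Form.ext'
    intro u v
    rw [zero_ap]
    let φ : E →ₗ[ℝ] ℝ :=
      { toFun := fun u => s.ap u v
        map_add' := fun x y => ap_add_left s x y v
        map_smul' := fun c x => ap_smul_left s c x v }
    have h4 : φ = 0 := by
      refine orbit_vec hirr hw ?_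
      intro g hg
      obtain ⟨g', _, h5, _⟩ := G_inv hg
      have h6 := h1 _ (G_pull hg s hs) (g' v)
      rw [pull_apply] at h6
      have h7 : g (g' v) = v := congrArg (fun A : E →L[ℝ] E => A v) h5
      rw [h7] at h6
      exact h6
    exact LinearMap.congr_fun h4 u
  · -- case (ii)
    right
    push Not at hc
    obtain ⟨s0, hs0, hs0w⟩ := hc
    -- `ζ ⊗ ζ ∈ S`
    have hq : sy ζ ζ ∈ S := by
      have h1 := S.sub_mem (hX _ (hX s0 hs0)) (S.smul_mem (ζ w) (hX s0 hs0))
      have h2 : Dl (rk ζ w) (Dl (rk ζ w) s0) - ζ w • Dl (rk ζ w) s0 =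
          s0.ap w w • sy ζ ζ := by
        apply Form.ext'
        intro u v
        rw [sub_ap, smul_ap, smul_ap, sy_ap]
        simp only [Dl_rk]
        ring
      rw [h2] at h1
      have h3 := S.smul_mem (s0.ap w w)⁻¹ h1
      rwa [smul_smul, inv_mul_cancel₀ hs0w, one_smul] at h3
    -- `ζ ⊙ (ζ ∘ g) ∈ S`
    have hsg : ∀ g ∈ G S, sy ζ (ζ.comp g) ∈ S := by
      intro k hk
      by_contra hcon
      obtain ⟨f, hf1, hf2⟩ := Submodule.exists_le_ker_of_notMem hcon
      let b : (E →L[ℝ] E) →ₗ[ℝ] ℝ :=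
        { toFun := fun A => f (sy ζ (ζ.comp A))
          map_add' := by
            intro A B
            rw [← map_add]
            congr 1
            apply Form.ext'
            intro u v
            rw [add_ap, sy_ap, sy_ap, sy_ap]
            simp only [ContinuousLinearMap.comp_apply, add_apply, map_add]
            ring
          map_smul' := by
            intro c A
            rw [← map_smul]
            congr 1
            apply Form.ext'
            intro u v
            rw [RingHom.id_apply, smul_ap, sy_ap, sy_ap]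
            simp only [ContinuousLinearMap.comp_apply, smul_apply, map_smul, smul_eq_mul]
            ring }
      have hab : ∀ g ∈ G S, a g * b g = 0 := by
        intro g hg
        have h1 := hX _ (G_pull hg _ hq)
        have h2 : Dl (rk ζ w) (pull g (sy ζ ζ)) = (2 * ζ (g w)) • sy ζ (ζ.comp g) := by
          apply Form.ext'
          intro u v
          rw [Dl_rk, pull_apply, pull_apply, sy_ap, sy_ap, smul_ap, sy_ap]
          simp only [ContinuousLinearMap.comp_apply]
          ring
        rw [h2] at h1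
        have h3 := hf2 h1
        rw [LinearMap.mem_ker, map_smul, smul_eq_mul] at h3
        show ζ (g w) * f (sy ζ (ζ.comp g)) = 0
        linarith
      rcases gen a b hab with h3 | h3
      · exact ha h3
      · exact hf1 (h3 k hk)
    -- `ζ ⊙ η ∈ S`
    have h1 : ∀ η : E →L[ℝ] ℝ, sy ζ η ∈ S := by
      let T : Submodule ℝ (E →L[ℝ] ℝ) :=
        { carrier := {η | sy ζ η ∈ S}
          add_mem' := by
            intro x y hx hy
            have : sy ζ (x + y) = sy ζ x + sy ζ y := by
              apply Form.ext'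
              intro u v
              rw [add_ap, sy_ap, sy_ap, sy_ap]
              simp only [add_apply]
              ring
            show sy ζ (x + y) ∈ S
            rw [this]
            exact S.add_mem hx hy
          zero_mem' := by
            have : sy ζ 0 = 0 := by
              apply Form.ext'
              intro u v
              rw [sy_ap, zero_ap]
              simp
            show sy ζ 0 ∈ S
            rw [this]
            exact S.zero_mem
          smul_mem' := by
            intro c x hx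
            have : sy ζ (c • x) = c • sy ζ x := by
              apply Form.ext'
              intro u v
              rw [smul_ap, sy_ap, sy_ap]
              simp only [smul_apply, smul_eq_mul]
              ring
            show sy ζ (c • x) ∈ S
            rw [this]
            exact S.smul_mem c hx }
      exact fun η => span_cov hirr hζ T hsg η
    -- all `α ⊙ η ∈ S`
    have h2 : ∀ α η : E →L[ℝ] ℝ, sy α η ∈ S := by
      let T : Submodule ℝ (E →L[ℝ] ℝ) :=
        { carrier := {α | ∀ η, sy α η ∈ S}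
          add_mem' := by
            intro x y hx hy η
            have : sy (x + y) η = sy x η + sy y η := by
              apply Form.ext'
              intro u v
              rw [add_ap, sy_ap, sy_ap, sy_ap]
              simp only [add_apply]
              ring
            rw [this]
            exact S.add_mem (hx η) (hy η)
          zero_mem' := by
            intro η
            have : sy 0 η = 0 := by
              apply Form.ext'
              intro u v
              rw [sy_ap, zero_ap]
              simp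
            rw [this]
            exact S.zero_mem
          smul_mem' := by
            intro c x hx η
            have : sy (c • x) η = c • sy x η := by
              apply Form.ext'
              intro u v
              rw [smul_ap, sy_ap, sy_ap]
              simp only [smul_apply, smul_eq_mul]
              ring
            rw [this]
            exact S.smul_mem c (hx η) }
      refine fun α => span_cov hirr hζ T ?_ α
      intro g hg η
      obtain ⟨g', _, _, h6⟩ := G_inv hg
      have h7 := G_pull hg _ (h1 (η.comp g'))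
      have h8 : pull g (sy ζ (η.comp g')) = sy (ζ.comp g) η := by
        apply Form.ext'
        intro u v
        have k1 : g' (g u) = u := congrArg (fun A : E →L[ℝ] E => A u) h6
        have k2 : g' (g v) = v := congrArg (fun A : E →L[ℝ] E => A v) h6
        rw [pull_apply, sy_ap, sy_ap]
        simp only [ContinuousLinearMap.comp_apply, k1, k2]
      rwa [h8] at h7
    -- all symmetric forms
    intro s hs
    let b := Module.finBasis ℝ E
    have h3 : s = (1 / 2 : ℝ) • ∑ i, sy (LinearMap.toContinuousLinearMap (b.coord i))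
        ((show E →L[ℝ] E →L[ℝ] ℝ from s) (b i)) := by
      apply Form.ext'
      intro u v
      have k1 : ∀ u v, s.ap u v = ∑ i, b.coord i u * s.ap (b i) v := by
        intro u v
        let φ : E →ₗ[ℝ] ℝ :=
          { toFun := fun u => s.ap u v
            map_add' := fun x y => ap_add_left s x y v
            map_smul' := fun c x => ap_smul_left s c x v }
        have k2 : φ u = φ (∑ i, b.repr u i • b i) := by rw [b.sum_repr]
        rw [map_sum] at k2
        refine k2.trans (Finset.sum_congr rfl fun i _ => ?_)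
        rw [map_smul, smul_eq_mul]
        rfl
      have k3 : ∀ (I : Finset (Fin (Module.finrank ℝ E))) (t : Fin (Module.finrank ℝ E) → Form E),
          (∑ i ∈ I, t i).ap u v = ∑ i ∈ I, (t i).ap u v := by
        intro I t
        induction I using Finset.cons_induction with
        | empty => rw [Finset.sum_empty, Finset.sum_empty, zero_ap]
        | cons i I hi ih => rw [Finset.sum_cons, Finset.sum_cons, add_ap, ih]
      rw [smul_ap, k3]
      have k4 : ∀ i, (sy (LinearMap.toContinuousLinearMap (b.coord i))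
          ((show E →L[ℝ] E →L[ℝ] ℝ from s) (b i))).ap u v =
          b.coord i u * s.ap (b i) v + b.coord i v * s.ap (b i) u := by
        intro i
        rw [sy_ap, mul_comm _ (LinearMap.toContinuousLinearMap (b.coord i) v)]
        rfl
      rw [Finset.sum_congr rfl fun i _ => k4 i, Finset.sum_add_distrib, ← k1, ← k1, hs v u]
      ring
    rw [h3]
    exact S.smul_mem _ (S.sum_mem fun i _ => h2 _ _)

/-- STEP 6 in plain terms: `S` a space of symmetric bilinear forms, `J` = the endomorphisms `X` with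
`s (X ·, ·) + s (·, X ·) ∈ S` for all `s ∈ S`. -/
theorem alg' [FiniteDimensional ℝ E] {S : Submodule ℝ (E →L[ℝ] E →L[ℝ] ℝ)}
    (hsym : ∀ s ∈ S, ∀ u v, s u v = s v u)
    (hirr : ∀ F : Submodule ℝ E, (∀ X : E →L[ℝ] E,
      (∀ s ∈ S, ∃ s' ∈ S, ∀ u v, s' u v = s (X u) v + s u (X v)) → ∀ v ∈ F, X v ∈ F) →
      F = ⊥ ∨ F = ⊤)
    {ζ : E →L[ℝ] ℝ} {w : E} (hζ : ζ ≠ 0) (hw : w ≠ 0)
    (hX : ∀ s ∈ S, ∃ s' ∈ S, ∀ u v, s' u v = ζ u * s w v + ζ v * s u w) :
    S = ⊥ ∨ ∀ s : E →L[ℝ] E →L[ℝ] ℝ, (∀ u v, s u v = s v u) → s ∈ S := by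
  have key := alg (E := E) (S := S) (ζ := ζ) (w := w) hsym ?_ hζ hw ?_
  · exact key
  · intro F hF
    apply hirr F
    intro X hX v hv
    refine hF X ?_ v hv
    intro s hs
    obtain ⟨s', hs', h1⟩ := hX s hs
    have : Dl X s = s' := by
      apply Form.ext'
      intro u v
      rw [Dl_apply]
      exact (h1 u v).symm
    rw [this]
    exact hs'
  · intro s hs
    obtain ⟨s', hs', h1⟩ := hX s hs
    have : Dl (rk ζ w) s = s' := by
      apply Form.ext'
      intro u v
      rw [Dl_rk]
      exact (h1 u v).symm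
    rw [this]
    exact hs'

end Vale.Agent.P207.H870.Alg
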